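import Vale.Agent.P088.R2.H269.INF.Slt

/-!
# P088, stage 3, zone at infinity: the slot quantities of `W = f + p(x) + q(y)`

`D_k p = 0` for the second slot, `D_i q = 0` for the first slot: the mixed quantities of `W` are
those of `f`.
-/

open Set Filter
open scoped ContDiff Topology

noncomputable section

namespace Vale.Agent.P088.R2.H269.INF

open Vale.Agent.P088.R2.H644.Sy Vale.Agent.P088.R2.H961.GW Vale.Agent.P088.R2.H644.Ch

variable {α E ι κ : Type*} [NormedAddCommGroup E] [NormedSpace ℝ E] [Fintype ι] [Fintype κ]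

/-- Pointwise bounds for the slot quantities of `W`: `g`, `gx`, `gy` bound the mixed derivatives
and the derivatives in the two slots. -/
structure Sb5 (σ : Sl E ι) (τ : Sl E κ) (W : E → ℝ) (C : ℝ) (g gx gy : ℕ → ℝ) (z : E) : Prop where
  d1 : ∀ i, |σ.D i W z| ≤ C * gx 0
  d1' : ∀ k, |τ.D k W z| ≤ C * gy 0
  d2 : ∀ i j, |σ.D i (σ.D j W) z| ≤ C * gx 1
  d2' : ∀ k l, |τ.D k (τ.D l W) z| ≤ C * gy 1
  dm : ∀ i k, |σ.D i (τ.D k W) z| ≤ C * g 1
  L1 : |σ.Λ W z| ≤ C * gx 1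
  L1' : |τ.Λ W z| ≤ C * gy 1
  l1 : ∀ i, |σ.D i (σ.Λ W) z| ≤ C * gx 2
  l2 : ∀ i, |σ.D i (τ.Λ W) z| ≤ C * g 2
  l3 : ∀ k, |τ.D k (σ.Λ W) z| ≤ C * g 2
  l4 : ∀ k, |τ.D k (τ.Λ W) z| ≤ C * gy 2
  m1 : |σ.Λ (σ.Λ W) z| ≤ C * gx 3
  m2 : |σ.Λ (τ.Λ W) z| ≤ C * g 3
  m3 : |τ.Λ (σ.Λ W) z| ≤ C * g 3
  m4 : |τ.Λ (τ.Λ W) z| ≤ C * gy 3
  g2 : |G2 σ W z| ≤ C * gx 1 ^ 2
  g2' : |G2 τ W z| ≤ C * gy 1 ^ 2
  gm : |M2 σ τ W W z| ≤ C * g 1 ^ 2

section pw

variable {U : Set E} {θ : E → ℝ} {σ : Sl E ι} {τ : Sl E κ} {f h p q W : E → ℝ} {z : E}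

/-- `Λ` depends only on the derivatives of the slot. -/
theorem L_of_D (hU : IsOpen U) (e : ∀ z ∈ U, ∀ i, σ.D i f z = σ.D i h z) (hz : z ∈ U) :
    σ.Λ f z = σ.Λ h z := by
  unfold Sl.Λ
  refine Finset.sum_congr rfl fun i _ => Finset.sum_congr rfl fun j _ => ?_
  rw [e z hz j, D_congr σ hU (fun z hz => e z hz j) i hz]

theorem G_of_D (e : ∀ i, σ.D i f z = σ.D i h z) {f' h' : E → ℝ}
    (e' : ∀ i, σ.D i f' z = σ.D i h' z) : σ.Γ f f' z = σ.Γ h h' z := by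
  unfold Sl.Γ
  simp only [e, e']

theorem G2_of_D (hU : IsOpen U) (e : ∀ z ∈ U, ∀ i, σ.D i f z = σ.D i h z) (hz : z ∈ U) :
    G2 σ f z = G2 σ h z := by
  have eF : ∀ z ∈ U, σ.F f z = σ.F h z := fun z hz => G_of_D (e z hz) (e z hz)
  have eL : ∀ z ∈ U, σ.Λ f z = σ.Λ h z := fun z hz => L_of_D hU e hz
  unfold G2
  rw [L_of_D hU (fun z hz i => D_congr σ hU eF i hz) hz,
    G_of_D (e z hz) fun i => D_congr σ hU eL i hz]

theorem D_add0 (hU : IsOpen U) (sf : Sm U f) (sp : Sm U p) (hp : ∀ z ∈ U, ∀ i, σ.D i p z = 0) :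
    ∀ z ∈ U, ∀ i, σ.D i (fun z => f z + p z) z = σ.D i f z := fun z hz i => by
  rw [D_add σ hU sf sp i hz, hp z hz i, add_zero]

/-- **The slot quantities of `W = f + p + q`.** -/
theorem sb5_pw (ok : σ.Ok U θ) (ot : τ.Ok U θ) (cm : Cm σ τ U) (sf : Sm U f) (sp : Sm U p)
    (sq : Sm U q) (hp : ∀ z ∈ U, ∀ k, τ.D k p z = 0) (hq : ∀ z ∈ U, ∀ i, σ.D i q z = 0)
    {C : ℝ} {g gx gy : ℕ → ℝ} (hz : z ∈ U) (b : Sb4 σ τ f C g z)
    (bx : Sb4 σ τ (fun z => f z + p z) C gx z) (bY : Sb4 σ τ (fun z => f z + q z) C gy z) :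
    Sb5 σ τ (fun z => f z + p z + q z) C g gx gy z := by
  have hU := ok.op
  have s1 : Sm U fun z => f z + p z := sf.add sp
  have s2 : Sm U fun z => f z + q z := sf.add sq
  have sW : Sm U fun z => f z + p z + q z := s1.add sq
  set W := fun z => f z + p z + q z with hW
  -- the first slot sees `f + p`, the second one `f + q`
  have ex : ∀ z ∈ U, ∀ i, σ.D i W z = σ.D i (fun z => f z + p z) z := D_add0 hU s1 sq hq
  have ey : ∀ z ∈ U, ∀ k, τ.D k W z = τ.D k (fun z => f z + q z) z := fun z hz k => by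
    rw [hW, D_add τ hU s1 sq k hz, D_add τ hU sf sp k hz, hp z hz k, add_zero,
      ← D_add τ hU sf sq k hz]
  have ef : ∀ z ∈ U, ∀ k, τ.D k (fun z => f z + p z) z = τ.D k f z := D_add0 hU sf sp hp
  have ef' : ∀ z ∈ U, ∀ i, σ.D i (fun z => f z + q z) z = σ.D i f z := D_add0 hU sf sq hq
  -- mixed second derivatives
  have em : ∀ z ∈ U, ∀ i k, σ.D i (τ.D k W) z = σ.D i (τ.D k f) z := by
    intro z hz i k
    rw [D_congr σ hU (fun z hz => ey z hz k) i hz, cD cm s2 hz i k,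
      D_congr τ hU (fun z hz => ef' z hz i) k hz, ← cD cm sf hz i k]
  -- `Λ`
  have eL : ∀ z ∈ U, σ.Λ W z = σ.Λ (fun z => f z + p z) z := fun z hz => L_of_D hU ex hz
  have eL' : ∀ z ∈ U, τ.Λ W z = τ.Λ (fun z => f z + q z) z := fun z hz => L_of_D hU ey hz
  have x1 : ∀ z ∈ U, ∀ k, τ.D k (σ.Λ W) z = τ.D k (σ.Λ f) z := by
    intro z hz k
    rw [D_congr τ hU eL k hz, ← L_D ok ot cm s1 k hz, ← L_D ok ot cm sf k hz]
    exact L_of_D hU (fun z hz i => D_congr σ hU (fun z hz => ef z hz k) i hz) hz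
  have x2 : ∀ z ∈ U, ∀ i, σ.D i (τ.Λ W) z = σ.D i (τ.Λ f) z := by
    intro z hz i
    rw [D_congr σ hU eL' i hz, ← L_D ot ok cm.symm s2 i hz, ← L_D ot ok cm.symm sf i hz]
    exact L_of_D hU (fun z hz k => D_congr τ hU (fun z hz => ef' z hz i) k hz) hz
  constructor
  · exact fun i => by rw [ex z hz i]; exact bx.d1 i
  · exact fun k => by rw [ey z hz k]; exact bY.d1' k
  · exact fun i j => by rw [D_congr σ hU (fun z hz => ex z hz j) i hz]; exact bx.d2 i j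
  · exact fun i j => by rw [D_congr τ hU (fun z hz => ey z hz j) i hz]; exact bY.d2' i j
  · exact fun i k => by rw [em z hz i k]; exact b.dm i k
  · rw [eL z hz]; exact bx.L1
  · rw [eL' z hz]; exact bY.L1'
  · exact fun i => by rw [D_congr σ hU eL i hz]; exact bx.l1 i
  · exact fun i => by rw [x2 z hz i]; exact b.l2 i
  · exact fun k => by rw [x1 z hz k]; exact b.l3 k
  · exact fun k => by rw [D_congr τ hU eL' k hz]; exact bY.l4 k
  · rw [L_of_D hU (fun z hz i => D_congr σ hU eL i hz) hz]; exact bx.m1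
  · rw [L_of_D hU x2 hz]; exact b.m2
  · rw [L_of_D hU x1 hz]; exact b.m3
  · rw [L_of_D hU (fun z hz k => D_congr τ hU eL' k hz) hz]; exact bY.m4
  · rw [G2_of_D hU ex hz]; exact bx.g2
  · rw [G2_of_D hU ey hz]; exact bY.g2'
  · have e : M2 σ τ W W z = M2 σ τ f f z := by
      unfold M2
      refine Finset.sum_congr rfl fun k _ => Finset.sum_congr rfl fun l _ => ?_
      rw [G_of_D (fun i => em z hz i k) fun i => em z hz i l]
    rw [e]; exact b.gm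

/-- The quantities of `Sb5` are local. -/
theorem Sb5.congr {C : ℝ} {g gx gy : ℕ → ℝ} {W' : E → ℝ} (hU : IsOpen U)
    (e : ∀ z ∈ U, W z = W' z) (hz : z ∈ U) (b : Sb5 σ τ W' C g gx gy z) :
    Sb5 σ τ W C g gx gy z := by
  have ex : ∀ z ∈ U, ∀ i, σ.D i W z = σ.D i W' z := fun z hz i => D_congr σ hU e i hz
  have ey : ∀ z ∈ U, ∀ k, τ.D k W z = τ.D k W' z := fun z hz k => D_congr τ hU e k hz
  have eL : ∀ z ∈ U, σ.Λ W z = σ.Λ W' z := fun z hz => L_of_D hU ex hz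
  have eL' : ∀ z ∈ U, τ.Λ W z = τ.Λ W' z := fun z hz => L_of_D hU ey hz
  constructor
  · exact fun i => by rw [ex z hz i]; exact b.d1 i
  · exact fun k => by rw [ey z hz k]; exact b.d1' k
  · exact fun i j => by rw [D_congr σ hU (fun z hz => ex z hz j) i hz]; exact b.d2 i j
  · exact fun i j => by rw [D_congr τ hU (fun z hz => ey z hz j) i hz]; exact b.d2' i j
  · exact fun i k => by rw [D_congr σ hU (fun z hz => ey z hz k) i hz]; exact b.dm i k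
  · rw [eL z hz]; exact b.L1
  · rw [eL' z hz]; exact b.L1'
  · exact fun i => by rw [D_congr σ hU eL i hz]; exact b.l1 i
  · exact fun i => by rw [D_congr σ hU eL' i hz]; exact b.l2 i
  · exact fun k => by rw [D_congr τ hU eL k hz]; exact b.l3 k
  · exact fun k => by rw [D_congr τ hU eL' k hz]; exact b.l4 k
  · rw [L_of_D hU (fun z hz i => D_congr σ hU eL i hz) hz]; exact b.m1
  · rw [L_of_D hU (fun z hz i => D_congr σ hU eL' i hz) hz]; exact b.m2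
  · rw [L_of_D hU (fun z hz k => D_congr τ hU eL k hz) hz]; exact b.m3
  · rw [L_of_D hU (fun z hz k => D_congr τ hU eL' k hz) hz]; exact b.m4
  · rw [G2_of_D hU ex hz]; exact b.g2
  · rw [G2_of_D hU ey hz]; exact b.g2'
  · have e : M2 σ τ W W z = M2 σ τ W' W' z := by
      unfold M2
      refine Finset.sum_congr rfl fun k _ => Finset.sum_congr rfl fun l _ => ?_
      rw [G_of_D (fun i => D_congr σ hU (fun z hz => ey z hz k) i hz)
        fun i => D_congr σ hU (fun z hz => ey z hz l) i hz]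
    rw [e]; exact b.gm

end pw

theorem Sb4.mono {σ : Sl E ι} {τ : Sl E κ} {f : E → ℝ} {C C' : ℝ} {g : ℕ → ℝ} {z : E}
    (b : Sb4 σ τ f C g z) (g0 : ∀ j, 0 ≤ g j) (hC : C ≤ C') : Sb4 σ τ f C' g z where
  d1 i := (b.d1 i).trans (mul_le_mul_of_nonneg_right hC (g0 _))
  d1' i := (b.d1' i).trans (mul_le_mul_of_nonneg_right hC (g0 _))
  d2 i j := (b.d2 i j).trans (mul_le_mul_of_nonneg_right hC (g0 _))
  d2' i j := (b.d2' i j).trans (mul_le_mul_of_nonneg_right hC (g0 _))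
  dm i j := (b.dm i j).trans (mul_le_mul_of_nonneg_right hC (g0 _))
  L1 := b.L1.trans (mul_le_mul_of_nonneg_right hC (g0 _))
  L1' := b.L1'.trans (mul_le_mul_of_nonneg_right hC (g0 _))
  l1 i := (b.l1 i).trans (mul_le_mul_of_nonneg_right hC (g0 _))
  l2 i := (b.l2 i).trans (mul_le_mul_of_nonneg_right hC (g0 _))
  l3 i := (b.l3 i).trans (mul_le_mul_of_nonneg_right hC (g0 _))
  l4 i := (b.l4 i).trans (mul_le_mul_of_nonneg_right hC (g0 _))
  m1 := b.m1.trans (mul_le_mul_of_nonneg_right hC (g0 _))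
  m2 := b.m2.trans (mul_le_mul_of_nonneg_right hC (g0 _))
  m3 := b.m3.trans (mul_le_mul_of_nonneg_right hC (g0 _))
  m4 := b.m4.trans (mul_le_mul_of_nonneg_right hC (g0 _))
  g2 := b.g2.trans (mul_le_mul_of_nonneg_right hC (sq_nonneg _))
  g2' := b.g2'.trans (mul_le_mul_of_nonneg_right hC (sq_nonneg _))
  gm := b.gm.trans (mul_le_mul_of_nonneg_right hC (sq_nonneg _))

section fam

variable {U : α → Set E} {ρ : α → E → ℝ} {γ γx γy : ℕ → α → E → ℝ} {f p q : α → E → ℝ}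
  {σ : α → Sl E ι} {τ : α → Sl E κ} {e : ι → E} {e' : κ → E} {θ : α → E → ℝ}

theorem sg_add (hU : ∀ a, IsOpen (U a)) (sf : ∀ a, Sm (U a) (f a)) (sp : ∀ a, Sm (U a) (p a))
    (g0 : ∀ j a, ∀ z ∈ U a, 0 ≤ γ j a z) (hg : ∀ j ≤ 3, ∃ A, ∀ a, ∀ z ∈ U a, γ j a z ≤ A * γx j a z)
    (hf : Sg U γ 3 fun a => fderiv ℝ (f a)) (hp : Sg U γx 3 fun a => fderiv ℝ (p a)) :
    Sg U γx 3 fun a => fderiv ℝ fun z => f a z + p a z := by
  refine ((hf.mono g0 hg).add hU hp).congr hU fun a z hz => ?_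
  exact fderiv_fun_add ((sf a).diff (hU a) hz) ((sp a).diff (hU a) hz)

/-- **The slot quantities of the families `W = f + p + q`.** -/
theorem sb5 (s : FS σ e U ρ 3) (t : FS τ e' U ρ 3)
    (ok : ∀ a, (σ a).Ok (U a) (θ a)) (ot : ∀ a, (τ a).Ok (U a) (θ a))
    (cm : ∀ a, Cm (σ a) (τ a) (U a)) (gd : Gd U ρ γ) (gdx : Gd U ρ γx) (gdy : Gd U ρ γy)
    (sf : ∀ a, Sm (U a) (f a)) (sp : ∀ a, Sm (U a) (p a)) (sq : ∀ a, Sm (U a) (q a))
    (hp : ∀ a, ∀ z ∈ U a, ∀ k, (τ a).D k (p a) z = 0)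
    (hq : ∀ a, ∀ z ∈ U a, ∀ i, (σ a).D i (q a) z = 0)
    (hx : ∀ j ≤ 3, ∃ A, ∀ a, ∀ z ∈ U a, γ j a z ≤ A * γx j a z)
    (hy : ∀ j ≤ 3, ∃ A, ∀ a, ∀ z ∈ U a, γ j a z ≤ A * γy j a z)
    (df : Sg U γ 3 fun a => fderiv ℝ (f a)) (dp : Sg U γx 3 fun a => fderiv ℝ (p a))
    (dq : Sg U γy 3 fun a => fderiv ℝ (q a)) :
    ∃ C, 0 ≤ C ∧ ∀ a, ∀ z ∈ U a, Sb5 (σ a) (τ a) (fun z => f a z + p a z + q a z) C
      (fun j => γ j a z) (fun j => γx j a z) (fun j => γy j a z) z := by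
  have hU : ∀ a, IsOpen (U a) := fun a => (ok a).op
  obtain ⟨c1, c10, h1⟩ := sb4 s t ok ot gd sf df
  obtain ⟨c2, c20, h2⟩ := sb4 s t ok ot gdx (fun a => (sf a).add (sp a))
    (sg_add hU sf sp gd.γ0 hx df dp)
  obtain ⟨c3, c30, h3⟩ := sb4 s t ok ot gdy (fun a => (sf a).add (sq a))
    (sg_add hU sf sq gd.γ0 hy df dq)
  refine ⟨c1 + c2 + c3, by positivity, fun a z hz => ?_⟩
  exact sb5_pw (ok a) (ot a) (cm a) (sf a) (sp a) (sq a) (hp a) (hq a) hz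
    ((h1 a z hz).mono (fun j => gd.γ0 j a z hz) (by linarith))
    ((h2 a z hz).mono (fun j => gdx.γ0 j a z hz) (by linarith))
    ((h3 a z hz).mono (fun j => gdy.γ0 j a z hz) (by linarith))

end fam

end Vale.Agent.P088.R2.H269.INF
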