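import Vale.Agent.P088.R2.H644.W.Prof3
import Vale.Agent.P088.R2.H644.W.Slot

/-!
# P088, stage 3, zone at infinity: the chain rule with graded sizes

`Sg U γ k f`: `|D^j f| ≤ C γ_j` on `U` for `j ≤ k`.  `W = Φ(u) + Ψ(φ, r)`, where
`|Φ^(j+1)| ≤ C γ_j`, `|∂_φ^i ∂_r^j Ψ| ≤ C γ_{i+j-1}` and `Du`, `Dφ`, `Dr` are symbols of size `1` at
the scale `ρ`, `γ_j / ρ ≤ C γ_{j+1}`: then `|D^(j+1) W| ≤ C γ_j`.
-/

open Set Filter
open scoped ContDiff Topology

noncomputable section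

namespace Vale.Agent.P088.R2.H269.INF

open Vale.Agent.P088.R2.H644.Sy

variable {α E F G : Type*} [NormedAddCommGroup E] [NormedSpace ℝ E] [NormedAddCommGroup F]
  [NormedSpace ℝ F] [NormedAddCommGroup G] [NormedSpace ℝ G]

/-- Families with graded sizes. -/
structure Sg (U : α → Set E) (γ : ℕ → α → E → ℝ) (k : ℕ) (f : α → E → F) : Prop where
  sm : ∀ a, ContDiffOn ℝ ∞ (f a) (U a)
  bd : ∀ j ≤ k, ∃ C, ∀ a, ∀ z ∈ U a, ‖iteratedFDeriv ℝ j (f a) z‖ ≤ C * γ j a z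

/-- The grading: `γ_j / ρ ≤ C γ_{j+1}`. -/
structure Gd (U : α → Set E) (ρ : α → E → ℝ) (γ : ℕ → α → E → ℝ) : Prop where
  ρ0 : ∀ a, ∀ z ∈ U a, 0 < ρ a z
  γ0 : ∀ j a, ∀ z ∈ U a, 0 ≤ γ j a z
  gr : ∀ j, ∃ C, ∀ a, ∀ z ∈ U a, γ j a z * (ρ a z)⁻¹ ≤ C * γ (j + 1) a z

section cal

variable {U : α → Set E} {ρ g n u φ r : α → E → ℝ} {k l : ℕ} {γ γ' : ℕ → α → E → ℝ}

/-- The shifted grading. -/
def sh (m : ℕ) (γ : ℕ → α → E → ℝ) (j : ℕ) : α → E → ℝ := γ (m + j)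

theorem Gd.sh (h : Gd U ρ γ) (m : ℕ) : Gd U ρ (sh m γ) where
  ρ0 := h.ρ0
  γ0 j := h.γ0 (m + j)
  gr j := h.gr (m + j)

theorem Gd.pw (h : Gd U ρ γ) (j l : ℕ) : ∃ C, 0 ≤ C ∧ ∀ a, ∀ z ∈ U a,
    γ j a z * (ρ a z)⁻¹ ^ l ≤ C * γ (j + l) a z := by
  induction l with
  | zero => exact ⟨1, zero_le_one, fun a z _ => by simp⟩
  | succ l ih =>
    obtain ⟨C, h0, hC⟩ := ih
    obtain ⟨C', hC'⟩ := h.gr (j + l)
    refine ⟨C * |C'|, by positivity, fun a z hz => ?_⟩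
    have h1 := hC a z hz
    have h2 := hC' a z hz
    have h3 : 0 ≤ (ρ a z)⁻¹ := (inv_pos.2 (h.ρ0 a z hz)).le
    have h4 := h.γ0 (j + l + 1) a z hz
    calc γ j a z * (ρ a z)⁻¹ ^ (l + 1) = γ j a z * (ρ a z)⁻¹ ^ l * (ρ a z)⁻¹ := by
          rw [pow_succ]; ring
      _ ≤ C * γ (j + l) a z * (ρ a z)⁻¹ := mul_le_mul_of_nonneg_right h1 h3
      _ = C * (γ (j + l) a z * (ρ a z)⁻¹) := by ring
      _ ≤ C * (|C'| * γ (j + l + 1) a z) := by
          refine mul_le_mul_of_nonneg_left (h2.trans ?_) h0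
          exact mul_le_mul_of_nonneg_right (le_abs_self _) h4
      _ = C * |C'| * γ (j + (l + 1)) a z := by rw [← add_assoc]; ring

theorem Sg.mono_k {f : α → E → F} (h : Sg U γ k f) (hl : l ≤ k) : Sg U γ l f :=
  ⟨h.sm, fun j hj => h.bd j (hj.trans hl)⟩

theorem Sg.congr {f f' : α → E → F} (hU : ∀ a, IsOpen (U a)) (h : Sg U γ k f)
    (e : ∀ a, ∀ z ∈ U a, f' a z = f a z) : Sg U γ k f' where
  sm a := (h.sm a).congr (e a)
  bd j hj := by
    obtain ⟨C, hC⟩ := h.bd j hj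
    refine ⟨C, fun a z hz => ?_⟩
    have h1 : f' a =ᶠ[𝓝 z] f a := by
      filter_upwards [(hU a).mem_nhds hz] with w hw using e a w hw
    rw [(h1.iteratedFDeriv ℝ j).eq_of_nhds]
    exact hC a z hz

theorem Sg.mono {f : α → E → F} (h : Sg U γ k f) (h0 : ∀ j a, ∀ z ∈ U a, 0 ≤ γ j a z)
    (hA : ∀ j ≤ k, ∃ A, ∀ a, ∀ z ∈ U a, γ j a z ≤ A * γ' j a z) : Sg U γ' k f where
  sm := h.sm
  bd j hj := by
    obtain ⟨C, hC⟩ := h.bd j hj
    obtain ⟨A, hA⟩ := hA j hj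
    refine ⟨|C| * A, fun a z hz => (hC a z hz).trans ?_⟩
    calc C * γ j a z ≤ |C| * γ j a z :=
          mul_le_mul_of_nonneg_right (le_abs_self C) (h0 j a z hz)
      _ ≤ |C| * (A * γ' j a z) := mul_le_mul_of_nonneg_left (hA a z hz) (abs_nonneg C)
      _ = |C| * A * γ' j a z := by ring

theorem Sg.add {f f' : α → E → F} (hU : ∀ a, IsOpen (U a)) (h : Sg U γ k f)
    (h' : Sg U γ k f') : Sg U γ k fun a z => f a z + f' a z where
  sm a := (h.sm a).add (h'.sm a)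
  bd j hj := by
    obtain ⟨C, hC⟩ := h.bd j hj
    obtain ⟨C', hC'⟩ := h'.bd j hj
    refine ⟨C + C', fun a z hz => ?_⟩
    have s1 : ContDiffAt ℝ (j : ℕ∞ω) (f a) z :=
      ((h.sm a z hz).contDiffAt ((hU a).mem_nhds hz)).of_le (by exact_mod_cast le_top)
    have s2 : ContDiffAt ℝ (j : ℕ∞ω) (f' a) z :=
      ((h'.sm a z hz).contDiffAt ((hU a).mem_nhds hz)).of_le (by exact_mod_cast le_top)
    have e := iteratedFDeriv_add_apply s1 s2
    have e' : iteratedFDeriv ℝ j (fun z => f a z + f' a z) z = iteratedFDeriv ℝ j (f a + f' a) z :=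
      rfl
    rw [e', e]
    refine (norm_add_le _ _).trans ?_
    rw [add_mul]
    exact add_le_add (hC a z hz) (hC' a z hz)

theorem Sg.zero (U : α → Set E) (γ : ℕ → α → E → ℝ) (k : ℕ) : Sg U γ k fun _ _ => (0 : F) where
  sm _ := contDiffOn_const
  bd j _ := by
    refine ⟨0, fun a z _ => ?_⟩
    rcases Nat.eq_zero_or_pos j with rfl | h
    · simp
    · rw [iteratedFDeriv_const_of_ne h.ne']; simp

theorem Sg.sum {ι : Type*} {f : ι → α → E → F} (hU : ∀ a, IsOpen (U a)) (S : Finset ι)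
    (h : ∀ i ∈ S, Sg U γ k (f i)) : Sg U γ k fun a z => ∑ i ∈ S, f i a z := by
  classical
  induction S using Finset.induction_on with
  | empty => simpa using Sg.zero U γ k
  | insert i S ha ih =>
    have h1 := (h i (Finset.mem_insert_self i S)).add hU
      (ih fun i hi => h i (Finset.mem_insert_of_mem hi))
    exact h1.congr hU fun a z _ => Finset.sum_insert ha

/-- Continuous linear maps. -/
theorem Sg.clm {f : α → E → F} (hU : ∀ a, IsOpen (U a)) (h : Sg U γ k f) (L : F →L[ℝ] G) :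
    Sg U γ k fun a z => L (f a z) where
  sm a := L.contDiff.comp_contDiffOn (h.sm a)
  bd j hj := by
    obtain ⟨C, hC⟩ := h.bd j hj
    refine ⟨‖L‖ * C, fun a z hz => ?_⟩
    have s1 : ContDiffAt ℝ (j : ℕ∞ω) (f a) z :=
      ((h.sm a z hz).contDiffAt ((hU a).mem_nhds hz)).of_le (by exact_mod_cast le_top)
    have e : ‖iteratedFDeriv ℝ j (L ∘ f a) z‖ ≤ ‖L‖ * ‖iteratedFDeriv ℝ j (f a) z‖ :=
      L.norm_iteratedFDeriv_comp_left s1 le_rfl
    refine e.trans ?_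
    rw [mul_assoc]
    exact mul_le_mul_of_nonneg_left (hC a z hz) (norm_nonneg L)

/-- Derivatives. -/
theorem Sg.fd {f : α → E → F} (hU : ∀ a, IsOpen (U a)) (h : Sg U γ (k + 1) f) :
    Sg U (sh 1 γ) k (fun a => fderiv ℝ (f a)) where
  sm a := (h.sm a).fderiv_of_isOpen (hU a) (by norm_num)
  bd j hj := by
    obtain ⟨C, hC⟩ := h.bd (j + 1) (Nat.succ_le_succ hj)
    refine ⟨C, fun a z hz => ?_⟩
    rw [norm_iteratedFDeriv_fderiv, sh, add_comm 1 j]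
    exact hC a z hz

/-- The inverse of `Sg.fd`. -/
theorem Sg.succ {f : α → E → F} (hf : ∀ a, ContDiffOn ℝ ∞ (f a) (U a))
    (h0 : ∃ C, ∀ a, ∀ z ∈ U a, ‖f a z‖ ≤ C * γ 0 a z)
    (h : Sg U (sh 1 γ) k (fun a => fderiv ℝ (f a))) :
    Sg U γ (k + 1) f where
  sm := hf
  bd j hj := by
    rcases j with _ | j
    · obtain ⟨C, hC⟩ := h0
      exact ⟨C, fun a z hz => by simpa using hC a z hz⟩
    · obtain ⟨C, hC⟩ := h.bd j (Nat.succ_le_succ_iff.1 hj)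
      refine ⟨C, fun a z hz => ?_⟩
      rw [← norm_iteratedFDeriv_fderiv]
      have := hC a z hz
      rwa [sh, add_comm 1 j] at this

/-- The value. -/
theorem Sg.val {f : α → E → F} (h : Sg U γ k f) : ∃ C, ∀ a, ∀ z ∈ U a, ‖f a z‖ ≤ C * γ 0 a z := by
  obtain ⟨C, hC⟩ := h.bd 0 (Nat.zero_le _)
  exact ⟨C, fun a z hz => by simpa using hC a z hz⟩

/-- Products with symbols of size `g` at the scale `ρ`. -/
theorem Sg.smul {f : α → E → ℝ} {h : α → E → F} (hU : ∀ a, IsOpen (U a)) (gd : Gd U ρ γ)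
    (g0 : ∀ a, ∀ z ∈ U a, 0 ≤ g a z) (hf : Sg U γ k f) (hh : Sf U ρ g k h) :
    Sg U (fun j a z => γ j a z * g a z) k fun a z => f a z • h a z where
  sm a := (hf.sm a).smul (hh.sm a)
  bd j hj := by
    have h1 : ∀ i, ∃ C, i ≤ k → ∀ a, ∀ z ∈ U a,
        ‖iteratedFDeriv ℝ i (f a) z‖ ≤ C * γ i a z := by
      intro i
      by_cases hi : i ≤ k
      · obtain ⟨C, hC⟩ := hf.bd i hi
        exact ⟨C, fun _ => hC⟩
      · exact ⟨0, fun h => absurd h hi⟩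
    have h2 : ∀ i, ∃ C, i ≤ k → ∀ a, ∀ z ∈ U a,
        ‖iteratedFDeriv ℝ i (h a) z‖ ≤ C * (g a z * (ρ a z)⁻¹ ^ i) := by
      intro i
      by_cases hi : i ≤ k
      · obtain ⟨C, hC⟩ := hh.bd i hi
        exact ⟨C, fun _ => hC⟩
      · exact ⟨0, fun h => absurd h hi⟩
    have h3 : ∀ i, ∃ A, 0 ≤ A ∧ ∀ a, ∀ z ∈ U a,
        γ i a z * (ρ a z)⁻¹ ^ (j - i) ≤ A * γ (i + (j - i)) a z := fun i => gd.pw i (j - i)
    choose C hC using h1
    choose C' hC' using h2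
    choose A hA0 hA using h3
    refine ⟨∑ i ∈ Finset.range (j + 1), (j.choose i : ℝ) * |C i| * |C' (j - i)| * A i,
      fun a z hz => ?_⟩
    have hUa := hU a
    have e1 := iteratedFDerivWithin_of_isOpen (𝕜 := ℝ) (f := fun z => f a z • h a z) j hUa hz
    have key := norm_iteratedFDerivWithin_smul_le (hf.sm a) (hh.sm a) hUa.uniqueDiffOn hz (n := j)
      (by exact_mod_cast le_top)
    rw [e1] at key
    refine key.trans ?_
    rw [Finset.sum_mul]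
    refine Finset.sum_le_sum fun i hi => ?_
    have hi' : i ≤ j := Nat.lt_succ_iff.1 (Finset.mem_range.1 hi)
    rw [iteratedFDerivWithin_of_isOpen i hUa hz, iteratedFDerivWithin_of_isOpen (j - i) hUa hz]
    have g1 := gd.γ0 i a z hz
    have g2 := g0 a z hz
    have g3 : 0 ≤ (ρ a z)⁻¹ ^ (j - i) := pow_nonneg (inv_pos.2 (gd.ρ0 a z hz)).le _
    have a1 : ‖iteratedFDeriv ℝ i (f a) z‖ ≤ |C i| * γ i a z :=
      (hC i (hi'.trans hj) a z hz).trans (mul_le_mul_of_nonneg_right (le_abs_self _) g1)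
    have a2 : ‖iteratedFDeriv ℝ (j - i) (h a) z‖ ≤ |C' (j - i)| * (g a z * (ρ a z)⁻¹ ^ (j - i)) :=
      (hC' (j - i) ((Nat.sub_le j i).trans hj) a z hz).trans
        (mul_le_mul_of_nonneg_right (le_abs_self _) (mul_nonneg g2 g3))
    have a3 := mul_le_mul a1 a2 (norm_nonneg _) ((norm_nonneg _).trans a1)
    have a4 := hA i a z hz
    rw [Nat.add_sub_cancel' hi'] at a4
    calc (j.choose i : ℝ) * ‖iteratedFDeriv ℝ i (f a) z‖ * ‖iteratedFDeriv ℝ (j - i) (h a) z‖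
        = (j.choose i : ℝ) * (‖iteratedFDeriv ℝ i (f a) z‖ * ‖iteratedFDeriv ℝ (j - i) (h a) z‖) := by
          ring
      _ ≤ (j.choose i : ℝ) * ((|C i| * γ i a z) *
          (|C' (j - i)| * (g a z * (ρ a z)⁻¹ ^ (j - i)))) :=
          mul_le_mul_of_nonneg_left a3 (Nat.cast_nonneg _)
      _ = (j.choose i : ℝ) * |C i| * |C' (j - i)| * ((γ i a z * (ρ a z)⁻¹ ^ (j - i)) * g a z) := by
          ring
      _ ≤ (j.choose i : ℝ) * |C i| * |C' (j - i)| * ((A i * γ j a z) * g a z) := by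
          have := mul_le_mul_of_nonneg_right a4 g2
          exact mul_le_mul_of_nonneg_left this (by positivity)
      _ = _ := by ring

theorem Sg.smul1 {f : α → E → ℝ} {h : α → E → F} (hU : ∀ a, IsOpen (U a)) (gd : Gd U ρ γ)
    (hf : Sg U γ k f) (hh : Sf U ρ (fun _ _ => 1) k h) : Sg U γ k fun a z => f a z • h a z :=
  (Sg.smul hU gd (fun _ _ _ => zero_le_one) hf hh).mono
    (fun j a z hz => by rw [mul_one]; exact gd.γ0 j a z hz)
    fun j _ => ⟨1, fun a z _ => by rw [mul_one, one_mul]⟩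

end cal

section comp

variable {U : α → Set E} {ρ u φ r : α → E → ℝ} {k : ℕ} {Φ : α → ℝ → ℝ} {γ : ℕ → α → E → ℝ}
  {D : α → ℕ → ℕ → ℝ × ℝ → ℝ}

/-- The partial derivatives of a function of two variables. -/
structure Pd (D : α → ℕ → ℕ → ℝ × ℝ → ℝ) : Prop where
  sm : ∀ a i j, ContDiffOn ℝ ∞ (D a i j) {z | 0 < z.2}
  hd : ∀ a i j (z : ℝ × ℝ), 0 < z.2 → HasFDerivAt (D a i j)
    (D a (i + 1) j z • ContinuousLinearMap.fst ℝ ℝ ℝ +
      D a i (j + 1) z • ContinuousLinearMap.snd ℝ ℝ ℝ) z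

theorem Pd.smc (p : Pd D) (sφ : ∀ a, ContDiffOn ℝ ∞ (φ a) (U a))
    (sr : ∀ a, ContDiffOn ℝ ∞ (r a) (U a)) (r0 : ∀ a, ∀ z ∈ U a, 0 < r a z) (a : α) (i j : ℕ) :
    ContDiffOn ℝ ∞ (fun z => D a i j (φ a z, r a z)) (U a) :=
  (p.sm a i j).comp ((sφ a).prodMk (sr a)) fun z hz => r0 a z hz

theorem Pd.fd (p : Pd D) (hU : ∀ a, IsOpen (U a)) (sφ : ∀ a, ContDiffOn ℝ ∞ (φ a) (U a))
    (sr : ∀ a, ContDiffOn ℝ ∞ (r a) (U a)) (r0 : ∀ a, ∀ z ∈ U a, 0 < r a z) (a : α) (i j : ℕ)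
    {z : E} (hz : z ∈ U a) : HasFDerivAt (fun z => D a i j (φ a z, r a z))
      (D a (i + 1) j (φ a z, r a z) • fderiv ℝ (φ a) z +
        D a i (j + 1) (φ a z, r a z) • fderiv ℝ (r a) z) z := by
  have d1 : HasFDerivAt (φ a) (fderiv ℝ (φ a) z) z :=
    ((((sφ a) z hz).contDiffAt ((hU a).mem_nhds hz)).differentiableAt (by simp)).hasFDerivAt
  have d2 : HasFDerivAt (r a) (fderiv ℝ (r a) z) z :=
    ((((sr a) z hz).contDiffAt ((hU a).mem_nhds hz)).differentiableAt (by simp)).hasFDerivAt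
  have h := (p.hd a i j (φ a z, r a z) (r0 a z hz)).comp z (d1.prodMk d2)
  refine h.congr_fderiv ?_
  ext v
  simp

/-- The partial derivatives. -/
theorem sg_D (p : Pd D) (hU : ∀ a, IsOpen (U a)) (gd : Gd U ρ γ)
    (sφ : ∀ a, ContDiffOn ℝ ∞ (φ a) (U a))
    (sr : ∀ a, ContDiffOn ℝ ∞ (r a) (U a)) (r0 : ∀ a, ∀ z ∈ U a, 0 < r a z)
    (dφ : Sf U ρ (fun _ _ => 1) k (fun a => fderiv ℝ (φ a)))
    (dr : Sf U ρ (fun _ _ => 1) k (fun a => fderiv ℝ (r a)))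
    (bD : ∀ i j, 1 ≤ i + j → i + j ≤ k + 1 → ∃ C, ∀ a, ∀ z ∈ U a,
      |D a i j (φ a z, r a z)| ≤ C * γ (i + j - 1) a z) :
    ∀ m i j, 1 ≤ i + j → i + j + m ≤ k + 1 →
      Sg U (sh (i + j - 1) γ) m fun a z => D a i j (φ a z, r a z) := by
  intro m
  induction m with
  | zero =>
    intro i j h1 h2
    refine ⟨fun a => p.smc sφ sr r0 a i j, fun l hl => ?_⟩
    obtain rfl : l = 0 := Nat.le_zero.1 hl
    obtain ⟨C, hC⟩ := bD i j h1 h2
    exact ⟨C, fun a z hz => by simpa [sh] using hC a z hz⟩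
  | succ m ih =>
    intro i j h1 h2
    refine Sg.succ (fun a => p.smc sφ sr r0 a i j) ?_ ?_
    · obtain ⟨C, hC⟩ := bD i j h1 (by omega)
      exact ⟨C, fun a z hz => by simpa [sh] using hC a z hz⟩
    · have a1 := (ih (i + 1) j (by omega) (by omega)).smul1 hU (gd.sh _)
        (dφ.mono_k (l := m) (by omega))
      have a2 := (ih i (j + 1) (by omega) (by omega)).smul1 hU (gd.sh _)
        (dr.mono_k (l := m) (by omega))
      have e1 : i + 1 + j - 1 = i + j := by omega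
      have e2 : i + (j + 1) - 1 = i + j := by omega
      rw [e1] at a1
      rw [e2] at a2
      have e3 : sh 1 (sh (i + j - 1) γ) = sh (i + j) γ := by
        funext l
        simp only [sh]
        rw [show i + j - 1 + (1 + l) = i + j + l by omega]
      rw [e3]
      exact (a1.add hU a2).congr hU fun a z hz => (p.fd hU sφ sr r0 a i j hz).fderiv

/-- **The derivative of `Ψ(φ, r)`.** -/
theorem sg_Psi (p : Pd D) (hU : ∀ a, IsOpen (U a)) (gd : Gd U ρ γ)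
    (sφ : ∀ a, ContDiffOn ℝ ∞ (φ a) (U a))
    (sr : ∀ a, ContDiffOn ℝ ∞ (r a) (U a)) (r0 : ∀ a, ∀ z ∈ U a, 0 < r a z)
    (dφ : Sf U ρ (fun _ _ => 1) k (fun a => fderiv ℝ (φ a)))
    (dr : Sf U ρ (fun _ _ => 1) k (fun a => fderiv ℝ (r a)))
    (bD : ∀ i j, 1 ≤ i + j → i + j ≤ k + 1 → ∃ C, ∀ a, ∀ z ∈ U a,
      |D a i j (φ a z, r a z)| ≤ C * γ (i + j - 1) a z) :
    Sg U γ k fun a => fderiv ℝ fun z => D a 0 0 (φ a z, r a z) := by
  have h := sg_D p hU gd sφ sr r0 dφ dr bD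
  have e0 : sh 0 γ = γ := by
    funext l
    simp only [sh, zero_add]
  have h1 : Sg U γ k fun a z => D a 1 0 (φ a z, r a z) := by
    have := h k 1 0 (by omega) (by omega)
    simpa [e0] using this
  have h2 : Sg U γ k fun a z => D a 0 1 (φ a z, r a z) := by
    have := h k 0 1 (by omega) (by omega)
    simpa [e0] using this
  exact ((h1.smul1 hU gd dφ).add hU (h2.smul1 hU gd dr)).congr hU fun a z hz =>
    (p.fd hU sφ sr r0 a 0 0 hz).fderiv

/-- The derivatives of `Φ` at `u`. -/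
theorem sg_P (hU : ∀ a, IsOpen (U a)) (gd : Gd U ρ γ)
    (su : ∀ a, ContDiffOn ℝ ∞ (u a) (U a)) (sΦ : ∀ a, ContDiff ℝ ∞ (Φ a))
    (du : Sf U ρ (fun _ _ => 1) k (fun a => fderiv ℝ (u a)))
    (bΦ : ∀ j ≤ k, ∃ C, ∀ a, ∀ z ∈ U a, |iteratedDeriv (j + 1) (Φ a) (u a z)| ≤ C * γ j a z) :
    ∀ m j, j + m ≤ k → Sg U (sh j γ) m fun a z => iteratedDeriv (j + 1) (Φ a) (u a z) := by
  have sI : ∀ j a, ContDiff ℝ ∞ (iteratedDeriv j (Φ a)) := fun j a => by
    induction j with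
    | zero => simpa [iteratedDeriv_zero] using sΦ a
    | succ j ih =>
      rw [iteratedDeriv_succ]
      exact (contDiff_infty_iff_deriv.1 ih).2
  intro m
  induction m with
  | zero =>
    intro j h2
    refine ⟨fun a => (sI _ a).comp_contDiffOn (su a), fun l hl => ?_⟩
    obtain rfl : l = 0 := Nat.le_zero.1 hl
    obtain ⟨C, hC⟩ := bΦ j (by omega)
    exact ⟨C, fun a z hz => by simpa [sh] using hC a z hz⟩
  | succ m ih =>
    intro j h2
    refine Sg.succ (fun a => (sI _ a).comp_contDiffOn (su a)) ?_ ?_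
    · obtain ⟨C, hC⟩ := bΦ j (by omega)
      exact ⟨C, fun a z hz => by simpa [sh] using hC a z hz⟩
    · have a1 := (ih (j + 1) (by omega)).smul1 hU (gd.sh _) (du.mono_k (l := m) (by omega))
      have e3 : sh 1 (sh j γ) = sh (j + 1) γ := by
        funext l
        simp only [sh]
        rw [show j + (1 + l) = j + 1 + l by omega]
      rw [e3]
      refine a1.congr hU fun a z hz => ?_
      have d1 : DifferentiableAt ℝ (iteratedDeriv (j + 1) (Φ a)) (u a z) :=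
        (sI _ a).contDiffAt.differentiableAt (by simp)
      have d2 : DifferentiableAt ℝ (u a) z :=
        ((su a z hz).contDiffAt ((hU a).mem_nhds hz)).differentiableAt (by simp)
      rw [iteratedDeriv_succ (n := j + 1)]
      exact (d1.hasDerivAt.comp_hasFDerivAt z d2.hasFDerivAt).fderiv

/-- **The derivative of `Φ(u)`.** -/
theorem sg_Phi (hU : ∀ a, IsOpen (U a)) (gd : Gd U ρ γ)
    (su : ∀ a, ContDiffOn ℝ ∞ (u a) (U a)) (sΦ : ∀ a, ContDiff ℝ ∞ (Φ a))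
    (du : Sf U ρ (fun _ _ => 1) k (fun a => fderiv ℝ (u a)))
    (bΦ : ∀ j ≤ k, ∃ C, ∀ a, ∀ z ∈ U a, |iteratedDeriv (j + 1) (Φ a) (u a z)| ≤ C * γ j a z) :
    Sg U γ k fun a => fderiv ℝ fun z => Φ a (u a z) := by
  have h := sg_P hU gd su sΦ du bΦ k 0 (by omega)
  have e0 : sh 0 γ = γ := by
    funext l
    simp only [sh, zero_add]
  rw [e0] at h
  refine (h.smul1 hU gd du).congr hU fun a z hz => ?_
  have d1 : DifferentiableAt ℝ (Φ a) (u a z) := (sΦ a).contDiffAt.differentiableAt (by simp)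
  have d2 : DifferentiableAt ℝ (u a) z :=
    ((su a z hz).contDiffAt ((hU a).mem_nhds hz)).differentiableAt (by simp)
  rw [zero_add, iteratedDeriv_one]
  exact (d1.hasDerivAt.comp_hasFDerivAt z d2.hasFDerivAt).fderiv

/-- **The derivative of `Φ(u) + Ψ(φ, r)`.** -/
theorem sg_W (p : Pd D) (hU : ∀ a, IsOpen (U a)) (gd : Gd U ρ γ)
    (su : ∀ a, ContDiffOn ℝ ∞ (u a) (U a)) (sφ : ∀ a, ContDiffOn ℝ ∞ (φ a) (U a))
    (sr : ∀ a, ContDiffOn ℝ ∞ (r a) (U a)) (sΦ : ∀ a, ContDiff ℝ ∞ (Φ a))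
    (r0 : ∀ a, ∀ z ∈ U a, 0 < r a z)
    (du : Sf U ρ (fun _ _ => 1) k (fun a => fderiv ℝ (u a)))
    (dφ : Sf U ρ (fun _ _ => 1) k (fun a => fderiv ℝ (φ a)))
    (dr : Sf U ρ (fun _ _ => 1) k (fun a => fderiv ℝ (r a)))
    (bΦ : ∀ j ≤ k, ∃ C, ∀ a, ∀ z ∈ U a, |iteratedDeriv (j + 1) (Φ a) (u a z)| ≤ C * γ j a z)
    (bD : ∀ i j, 1 ≤ i + j → i + j ≤ k + 1 → ∃ C, ∀ a, ∀ z ∈ U a,
      |D a i j (φ a z, r a z)| ≤ C * γ (i + j - 1) a z) :
    Sg U γ k fun a => fderiv ℝ fun z => Φ a (u a z) + D a 0 0 (φ a z, r a z) := by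
  refine ((sg_Phi hU gd su sΦ du bΦ).add hU (sg_Psi p hU gd sφ sr r0 dφ dr bD)).congr hU
    fun a z hz => ?_
  have d1 : DifferentiableAt ℝ (fun z => Φ a (u a z)) z :=
    (((sΦ a).comp_contDiffOn (su a) z hz).contDiffAt ((hU a).mem_nhds hz)).differentiableAt
      (by simp)
  have d2 : DifferentiableAt ℝ (fun z => D a 0 0 (φ a z, r a z)) z :=
    (p.fd hU sφ sr r0 a 0 0 hz).differentiableAt
  exact fderiv_fun_add d1 d2

end comp

end Vale.Agent.P088.R2.H269.INF
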