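import Vale.Agent.P088.R2.H768.W.Exi

/-!
# P088, stage 3, zone at infinity: sizes of the derivatives of the slow exponential

`|∂_f^n Ψ| ≤ C (∂_f² Ψ)² / ∂_f Ψ` for `n ≥ 3`; with `c' n ≤ b² r`, `1 ≤ A b r` and
`N + ∂_f Ψ ≤ n`: `|D_ij| ≤ C n b^(i + j - 1)` for `i + j ≤ 3` and `|D_ij| ≤ C n b²` for
`i + j = 4`.
-/

open scoped ContDiff Topology
open Set Filter

noncomputable section

namespace Vale.Agent.P088.R2.H269.INF

open Vale.Agent.P088.R2.H768.W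

/-- The higher pure derivatives. -/
theorem slow3 : ∃ (C₀ : ℝ) (C₃ : ℕ → ℝ), 0 < C₀ ∧ (∀ n, 0 ≤ C₃ n) ∧ ∀ τ r₁ : ℝ, 0 < τ → τ ≤ 1 →
    0 < r₁ → C₀ ≤ τ * r₁ → ∀ n, 3 ≤ n → ∀ z : E2, 0 < z.2 →
    |Dp τ r₁ n 0 z| ≤ C₃ n * (Dp τ r₁ 2 0 z ^ 2 / Dp τ r₁ 1 0 z) := by
  obtain ⟨C, Cb, hC, hCb, hcor⟩ := cor
  refine ⟨100 * C, fun n => 1 + 5 * Cb n 0, by positivity, fun n => by
    have := hCb n 0; positivity, fun τ r₁ hτ hτ1 hr h0 n hn z hz => ?_⟩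
  have hdl : 0 < dl τ r₁ := inv_pos.2 (mul_pos hτ hr)
  have hd1 : C * dl τ r₁ ≤ 1 / 100 := by
    unfold dl
    rw [← div_eq_mul_inv, div_le_iff₀ (mul_pos hτ hr)]
    linarith
  have hdl1 : dl τ r₁ ≤ 1 := by nlinarith
  have hb := hCb n 0
  rcases lt_or_ge z.2 (r₁ * Real.exp (-1)) with h | h
  · rw [Dp_in hτ hr _ _ hz h, Dp_in hτ hr _ _ hz h, Dp_in hτ hr _ _ hz h]
    have h1 := Real.exp_pos z.1
    simp only [if_true]
    rw [abs_of_pos h1, sq, mul_div_assoc, div_self h1.ne', mul_one]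
    exact le_mul_of_one_le_left h1.le (by linarith)
  · have hw : Zc τ r₁ z ∈ Om := by
      by_contra h1
      have h2 : (Zc τ r₁ z).2 < -1 := not_le.1 h1
      exact absurd ((in_or hr hz).1 h2) (not_lt.2 h)
    have c := hcor τ (dl τ r₁) hτ.le hτ1 hdl.le hdl1 _ hw
    have hE : 0 < Real.exp (uu τ r₁ z) := Real.exp_pos _
    have h1 := c.R10_ge hd1
    have h2 := c.R20_lo hd1
    have h3 := c.R20_pos hd1
    have h4 := c.r3 n hn
    have hw0 := wm_pos 2 (-1) (Zc τ r₁ z)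
    set E := Real.exp (uu τ r₁ z)
    set a := RR τ (dl τ r₁) 2 0 (Zc τ r₁ z)
    set g := RR τ (dl τ r₁) 1 0 (Zc τ r₁ z)
    set w := wm 2 (-1) (Zc τ r₁ z)
    have hg : 0 < g := by linarith
    have h5 : w * w ≤ 4 * a ^ 2 := by nlinarith
    have h6 : |RR τ (dl τ r₁) n 0 (Zc τ r₁ z)| ≤ Cb n 0 * (4 * a ^ 2) :=
      h4.trans (mul_le_mul_of_nonneg_left h5 hb)
    rw [Dp, Dp, Dp, abs_mul, abs_of_pos hE]
    have e : (E * a) ^ 2 / (E * g) = E * (a ^ 2 / g) := by field_simp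
    have e' : E * RR τ (dl τ r₁) 2 0 (Zc τ r₁ z) = E * a := rfl
    rw [e', e]
    have h7 : a ^ 2 ≤ 101 / 100 * (a ^ 2 / g) := by
      rw [← mul_div_assoc, le_div_iff₀ hg]
      have : 0 ≤ a ^ 2 := sq_nonneg _
      nlinarith
    have h8 : 0 ≤ a ^ 2 / g := by positivity
    calc E * |RR τ (dl τ r₁) n 0 (Zc τ r₁ z)| ≤ E * (Cb n 0 * (4 * a ^ 2)) :=
          mul_le_mul_of_nonneg_left h6 hE.le
      _ ≤ E * (Cb n 0 * (4 * (101 / 100 * (a ^ 2 / g)))) := by gcongr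
      _ ≤ E * ((1 + 5 * Cb n 0) * (a ^ 2 / g)) := by
          refine mul_le_mul_of_nonneg_left ?_ hE.le
          nlinarith
      _ = (1 + 5 * Cb n 0) * (E * (a ^ 2 / g)) := by ring

/-- The sizes. -/
def sz (n b : ℝ) (j : ℕ) : ℝ := n * b ^ (min j 2) * (1 + b) ^ (j - 2)

theorem sz0 (n b : ℝ) : sz n b 0 = n := by simp [sz]
theorem sz1 (n b : ℝ) : sz n b 1 = n * b := by simp [sz]
theorem sz2 (n b : ℝ) : sz n b 2 = n * b ^ 2 := by simp [sz]
theorem sz3 (n b : ℝ) : sz n b 3 = n * b ^ 2 * (1 + b) := by simp [sz]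

theorem sz_nn {n b : ℝ} (hn : 0 ≤ n) (hb : 0 ≤ b) (j : ℕ) : 0 ≤ sz n b j := by
  unfold sz; positivity

/-- **Sizes of all derivatives up to order four.** -/
theorem slow_sz {ε N c' τ r₁ : ℝ} {Cb : ℕ → ℕ → ℝ} {u : E2 → ℝ} {D : ℕ → ℕ → E2 → ℝ}
    (s : IsSlow ε N c' τ r₁ Cb u D) (hε1 : ε ≤ 1) (hN : 0 ≤ N) {A C₃ n b : ℝ}
    {z : E2} (hz : 0 < z.2) (hn : N + D 1 0 z ≤ n) (hb : 0 < b) (hA : 0 ≤ A) (h1 : c' * n ≤ b ^ 2 * z.2)
    (hc : 0 ≤ c') (h2 : 1 ≤ A * (b * z.2)) (hC : 0 ≤ C₃)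
    (h3 : ∀ m, 3 ≤ m → m ≤ 4 → |D m 0 z| ≤ C₃ * (D 2 0 z ^ 2 / D 1 0 z)) (i j : ℕ)
    (hij : 1 ≤ i + j) (hij4 : i + j ≤ 4) :
    |D i j z| ≤ (2 + A + C₃ + |Cb i j| * A) * sz n b (i + j - 1) := by
  have hG := s.G_pos z hz
  have hg := s.g_pos z hz
  have hn0 : 0 < n := lt_of_lt_of_le (by linarith) hn
  have hGn : D 1 0 z ≤ n := by linarith
  have hCb := abs_nonneg (Cb i j)
  have hK : 1 ≤ 2 + A + C₃ + |Cb i j| * A := by
    have : 0 ≤ |Cb i j| * A := mul_nonneg hCb hA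
    linarith
  -- `X = D20² / D10 ≤ n b²`
  have hX : D 2 0 z ^ 2 / D 1 0 z ≤ n * b ^ 2 := by
    rw [div_le_iff₀ hG]
    have k1 := s.slow z hz
    have k2 : c' * (D 1 0 z * (N + D 1 0 z) ^ 2) ≤ c' * (D 1 0 z * n ^ 2) := by gcongr
    have k3 : c' * (D 1 0 z * n ^ 2) = (c' * n) * (D 1 0 z * n) := by ring
    have k4 : (c' * n) * (D 1 0 z * n) ≤ (b ^ 2 * z.2) * (D 1 0 z * n) :=
      mul_le_mul_of_nonneg_right h1 (by positivity)
    have k5 : D 2 0 z ^ 2 * z.2 ≤ (n * b ^ 2 * D 1 0 z) * z.2 := by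
      calc _ ≤ c' * (D 1 0 z * (N + D 1 0 z) ^ 2) := k1
        _ ≤ (b ^ 2 * z.2) * (D 1 0 z * n) := by rw [k3] at k2; exact k2.trans k4
        _ = _ := by ring
    exact le_of_mul_le_mul_right k5 hz
  have hX0 : 0 ≤ D 2 0 z ^ 2 / D 1 0 z := by positivity
  -- `D20 ≤ n b`
  have hg2 : D 2 0 z ≤ n * b := by
    have k1 : D 2 0 z ^ 2 ≤ (n * b) ^ 2 := by
      have := (div_le_iff₀ hG).1 hX
      calc D 2 0 z ^ 2 ≤ n * b ^ 2 * D 1 0 z := this
        _ ≤ n * b ^ 2 * n := mul_le_mul_of_nonneg_left hGn (by positivity)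
        _ = (n * b) ^ 2 := by ring
    exact (abs_le_of_sq_le_sq' k1 (by positivity)).2
  -- `1 / r ≤ A b`
  have hr : 1 / z.2 ≤ A * b := by
    rw [div_le_iff₀ hz]
    linarith
  have hgr : D 2 0 z / z.2 ≤ A * (n * b ^ 2) := by
    calc D 2 0 z / z.2 = D 2 0 z * (1 / z.2) := by ring
      _ ≤ (n * b) * (A * b) := mul_le_mul hg2 hr (by positivity) (by positivity)
      _ = _ := by ring
  have hom : |D 1 1 z / D 2 0 z| ≤ 1 := by
    rw [abs_div, abs_of_pos hg, div_le_one hg]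
    refine (s.om z hz).trans ?_
    exact mul_le_of_le_one_left hg.le hε1
  have nb2 : 0 < n * b ^ 2 := by positivity
  have hhi : ∀ m, 3 ≤ m → m ≤ 4 → i + j = m → |D i j z| ≤
      (2 + A + C₃ + |Cb i j| * A) * (n * b ^ 2) := by
    intro m hm hm4 he
    have k1 := s.hij i j z hz (by omega)
    have k2 : |D (i + j) 0 z * (D 1 1 z / D 2 0 z) ^ j| ≤ C₃ * (n * b ^ 2) := by
      rw [abs_mul, abs_pow]
      have k3 := h3 m hm hm4
      rw [← he] at k3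
      have k4 : |D 1 1 z / D 2 0 z| ^ j ≤ 1 := pow_le_one₀ (abs_nonneg _) hom
      calc |D (i + j) 0 z| * |D 1 1 z / D 2 0 z| ^ j ≤ |D (i + j) 0 z| * 1 :=
            mul_le_mul_of_nonneg_left k4 (abs_nonneg _)
        _ ≤ C₃ * (D 2 0 z ^ 2 / D 1 0 z) := by rw [mul_one]; exact k3
        _ ≤ _ := mul_le_mul_of_nonneg_left hX hC
    have k5 : Cb i j * (D 2 0 z / z.2) ≤ |Cb i j| * (A * (n * b ^ 2)) := by
      refine (mul_le_mul_of_nonneg_right (le_abs_self _) (by positivity)).trans ?_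
      exact mul_le_mul_of_nonneg_left hgr hCb
    have k6 : |D i j z| ≤ |D i j z - D (i + j) 0 z * (D 1 1 z / D 2 0 z) ^ j| +
        |D (i + j) 0 z * (D 1 1 z / D 2 0 z) ^ j| := by
      have := abs_add_le (D i j z - D (i + j) 0 z * (D 1 1 z / D 2 0 z) ^ j)
        (D (i + j) 0 z * (D 1 1 z / D 2 0 z) ^ j)
      rwa [sub_add_cancel] at this
    calc |D i j z| ≤ |Cb i j| * (A * (n * b ^ 2)) + C₃ * (n * b ^ 2) := by linarith
      _ = (C₃ + |Cb i j| * A) * (n * b ^ 2) := by ring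
      _ ≤ _ := mul_le_mul_of_nonneg_right (by linarith) nb2.le
  obtain h | h | h | h : i + j = 1 ∨ i + j = 2 ∨ i + j = 3 ∨ i + j = 4 := by omega
  · rw [h, sz0]
    have k1 : |D i j z| ≤ n := by
      obtain ⟨rfl, rfl⟩ | ⟨rfl, rfl⟩ : (i = 1 ∧ j = 0) ∨ (i = 0 ∧ j = 1) := by omega
      · rw [abs_of_pos hG]; exact hGn
      · refine (s.mu z hz).trans ?_
        exact (mul_le_of_le_one_left hG.le hε1).trans hGn
    exact k1.trans (le_mul_of_one_le_left hn0.le hK)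
  · rw [h, sz1]
    have nb : 0 < n * b := by positivity
    obtain ⟨rfl, rfl⟩ | ⟨rfl, rfl⟩ | ⟨rfl, rfl⟩ :
      (i = 2 ∧ j = 0) ∨ (i = 1 ∧ j = 1) ∨ (i = 0 ∧ j = 2) := by omega
    · rw [abs_of_pos hg]
      exact hg2.trans (le_mul_of_one_le_left nb.le hK)
    · refine (s.om z hz).trans ?_
      refine (mul_le_of_le_one_left hg.le hε1).trans ?_
      exact hg2.trans (le_mul_of_one_le_left nb.le hK)
    · have k1 := s.s0 z hz
      have k2 : |D 0 2 z| ≤ D 2 0 z + D 1 0 z / z.2 := by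
        have k3 : |D 0 2 z * D 2 0 z| ≤ (D 2 0 z + D 1 0 z / z.2) * D 2 0 z := by
          have k4 : |D 0 2 z * D 2 0 z| ≤ |D 0 2 z * D 2 0 z - D 1 1 z ^ 2| + |D 1 1 z ^ 2| := by
            have := abs_add_le (D 0 2 z * D 2 0 z - D 1 1 z ^ 2) (D 1 1 z ^ 2)
            rwa [sub_add_cancel] at this
          have k5 : |D 1 1 z ^ 2| ≤ D 2 0 z ^ 2 := by
            rw [abs_pow]
            refine pow_le_pow_left₀ (abs_nonneg _) ?_ 2
            exact (s.om z hz).trans (mul_le_of_le_one_left hg.le hε1)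
          have k6 : ε * (D 1 0 z * D 2 0 z / z.2) ≤ D 1 0 z * D 2 0 z / z.2 :=
            mul_le_of_le_one_left (by positivity) hε1
          calc |D 0 2 z * D 2 0 z| ≤ D 1 0 z * D 2 0 z / z.2 + D 2 0 z ^ 2 := by linarith
            _ = _ := by ring
        rw [abs_mul, abs_of_pos hg] at k3
        exact le_of_mul_le_mul_right k3 hg
      have k3 : D 1 0 z / z.2 ≤ A * (n * b) := by
        calc D 1 0 z / z.2 = D 1 0 z * (1 / z.2) := by ring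
          _ ≤ n * (A * b) := mul_le_mul hGn hr (by positivity) hn0.le
          _ = _ := by ring
      have k4 : 0 ≤ |Cb 0 2| * A := mul_nonneg hCb hA
      calc |D 0 2 z| ≤ n * b + A * (n * b) := by linarith
        _ = (1 + A) * (n * b) := by ring
        _ ≤ _ := mul_le_mul_of_nonneg_right (by linarith) nb.le
  · rw [h, sz2]
    exact hhi 3 le_rfl (by norm_num) h
  · rw [h, sz3]
    refine (hhi 4 (by norm_num) le_rfl h).trans ?_
    refine mul_le_mul_of_nonneg_left ?_ (by linarith)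
    nlinarith

end Vale.Agent.P088.R2.H269.INF
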