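import Vale.Agent.P088.R2.H269.INF.Sg

/-!
# P088, stage 3, zone at infinity: the slot quantities with graded sizes
-/

open Set Filter
open scoped ContDiff Topology

noncomputable section

namespace Vale.Agent.P088.R2.H269.INF

open Vale.Agent.P088.R2.H644.Sy Vale.Agent.P088.R2.H961.GW Vale.Agent.P088.R2.H644.Ch

variable {α E ι κ : Type*} [NormedAddCommGroup E] [NormedSpace ℝ E] [Fintype ι] [Fintype κ]
  {U : α → Set E} {ρ : α → E → ℝ} {γ : ℕ → α → E → ℝ} {k l : ℕ} {f : α → E → ℝ}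
  {σ : α → Sl E ι} {τ : α → Sl E κ} {e : ι → E} {e' : κ → E}

/-- Directional derivatives. -/
theorem Sg.dir {F : Type*} [NormedAddCommGroup F] [NormedSpace ℝ F] {f : α → E → F}
    (hU : ∀ a, IsOpen (U a)) (h : Sg U γ k (fun a => fderiv ℝ (f a))) (v : E) :
    Sg U γ k fun a z => fderiv ℝ (f a) z v :=
  h.clm hU (ContinuousLinearMap.apply ℝ F v)

/-- `D_i f`. -/
theorem fs_D (s : FS σ e U ρ l) (hU : ∀ a, IsOpen (U a))
    (hf : Sg U γ k (fun a => fderiv ℝ (f a))) (i : ι) : Sg U γ k fun a => (σ a).D i (f a) :=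
  (hf.dir hU (e i)).congr hU fun a z _ => s.D_eq a i (f a) z

/-- `D_i f` from `f`. -/
theorem fs_D1 (s : FS σ e U ρ l) (hU : ∀ a, IsOpen (U a)) (hf : Sg U γ (k + 1) f) (i : ι) :
    Sg U (sh 1 γ) k fun a => (σ a).D i (f a) :=
  fs_D s hU (hf.fd hU) i

/-- Products with symbols of size `1`. -/
theorem Sg.mul1 {h : α → E → ℝ} (hU : ∀ a, IsOpen (U a)) (gd : Gd U ρ γ)
    (hf : Sg U γ k f) (hh : Sf U ρ (fun _ _ => 1) k h) : Sg U γ k fun a z => h a z * f a z :=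
  (Sg.smul1 hU gd hf hh).congr hU fun a z _ => by rw [smul_eq_mul, mul_comm]

/-- Products with symbols of size `1 / ρ`. -/
theorem Sg.mulr {h : α → E → ℝ} (hU : ∀ a, IsOpen (U a)) (gd : Gd U ρ γ)
    (hf : Sg U γ k f) (hh : Sf U ρ (fun a z => (ρ a z)⁻¹) k h) :
    Sg U (sh 1 γ) k fun a z => h a z * f a z :=
  ((Sg.smul hU gd (fun a z hz => (inv_pos.2 (gd.ρ0 a z hz)).le) hf hh).mono
    (fun j a z hz => mul_nonneg (gd.γ0 j a z hz) (inv_pos.2 (gd.ρ0 a z hz)).le) fun j _ => by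
      obtain ⟨C, hC⟩ := gd.gr j
      refine ⟨C, fun a z hz => ?_⟩
      have := hC a z hz
      rwa [sh, add_comm 1 j]).congr hU fun a z _ => by rw [smul_eq_mul, mul_comm]

/-- `Λ f`. -/
theorem fs_L (s : FS σ e U ρ (k + 1)) (hU : ∀ a, IsOpen (U a)) (gd : Gd U ρ γ)
    (hf : Sg U γ (k + 1) (fun a => fderiv ℝ (f a))) :
    Sg U (sh 1 γ) k fun a => (σ a).Λ (f a) := by
  refine Sg.sum hU _ fun i _ => Sg.sum hU _ fun j _ => ?_
  have s0 := s.mono_k k.le_succ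
  have h1 : Sg U (sh 1 γ) k fun a z => (σ a).s i j z * (σ a).D i ((σ a).D j (f a)) z :=
    Sg.mul1 hU (gd.sh 1) (fs_D1 s hU (fs_D s hU hf j) i) (s0.ss i j)
  have h2 : Sg U (sh 1 γ) k fun a z => (σ a).D i ((σ a).s i j) z * (σ a).D j (f a) z :=
    Sg.mulr hU gd (fs_D s hU (hf.mono_k k.le_succ) j)
      ((s.D hU (s.ss i j) i).wcongr fun _ _ _ => by ring)
  refine (h1.add hU h2).congr hU fun a z _ => ?_
  rw [s.k0, zero_mul, add_zero]

/-- Pointwise bounds for the slot quantities of a function: `γ_j` bounds `D^(j+1) f`. -/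
structure Sb4 (σ : Sl E ι) (τ : Sl E κ) (f : E → ℝ) (C : ℝ) (g : ℕ → ℝ) (z : E) : Prop where
  d1 : ∀ i, |σ.D i f z| ≤ C * g 0
  d1' : ∀ k, |τ.D k f z| ≤ C * g 0
  d2 : ∀ i j, |σ.D i (σ.D j f) z| ≤ C * g 1
  d2' : ∀ k l, |τ.D k (τ.D l f) z| ≤ C * g 1
  dm : ∀ i k, |σ.D i (τ.D k f) z| ≤ C * g 1
  L1 : |σ.Λ f z| ≤ C * g 1
  L1' : |τ.Λ f z| ≤ C * g 1
  l1 : ∀ i, |σ.D i (σ.Λ f) z| ≤ C * g 2
  l2 : ∀ i, |σ.D i (τ.Λ f) z| ≤ C * g 2
  l3 : ∀ k, |τ.D k (σ.Λ f) z| ≤ C * g 2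
  l4 : ∀ k, |τ.D k (τ.Λ f) z| ≤ C * g 2
  m1 : |σ.Λ (σ.Λ f) z| ≤ C * g 3
  m2 : |σ.Λ (τ.Λ f) z| ≤ C * g 3
  m3 : |τ.Λ (σ.Λ f) z| ≤ C * g 3
  m4 : |τ.Λ (τ.Λ f) z| ≤ C * g 3
  g2 : |G2 σ f z| ≤ C * g 1 ^ 2
  g2' : |G2 τ f z| ≤ C * g 1 ^ 2
  gm : |M2 σ τ f f z| ≤ C * g 1 ^ 2

/-- Uniform bounds over finite index sets. -/
theorem bd_all {ι' : Type*} [Fintype ι'] {F : ι' → α → E → ℝ} {g : α → E → ℝ}
    (g0 : ∀ a, ∀ z ∈ U a, 0 ≤ g a z)
    (h : ∀ i, ∃ C, ∀ a, ∀ z ∈ U a, ‖F i a z‖ ≤ C * g a z) :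
    ∃ C, 0 ≤ C ∧ ∀ i a, ∀ z ∈ U a, |F i a z| ≤ C * g a z := by
  choose C hC using h
  refine ⟨∑ i, |C i|, Finset.sum_nonneg fun _ _ => abs_nonneg _, fun i a z hz => ?_⟩
  refine (hC i a z hz).trans (mul_le_mul_of_nonneg_right ?_ (g0 a z hz))
  exact (le_abs_self _).trans
    (Finset.single_le_sum (f := fun i => |C i|) (fun _ _ => abs_nonneg _) (Finset.mem_univ i))

theorem bd_one {F : α → E → ℝ} {g : α → E → ℝ} (g0 : ∀ a, ∀ z ∈ U a, 0 ≤ g a z)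
    (h : ∃ C, ∀ a, ∀ z ∈ U a, ‖F a z‖ ≤ C * g a z) :
    ∃ C, 0 ≤ C ∧ ∀ a, ∀ z ∈ U a, |F a z| ≤ C * g a z := by
  obtain ⟨C, h0, hC⟩ := bd_all (ι' := Unit) (F := fun _ => F) g0 fun _ => h
  exact ⟨C, h0, hC ()⟩

/-- The bound for `Γ₂` with graded sizes. -/
theorem g2_bd {θ : α → E → ℝ} (s : FS σ e U ρ 2) (ok : ∀ a, (σ a).Ok (U a) (θ a))
    (gd : Gd U ρ γ) (sf : ∀ a, Sm (U a) (f a)) (hf : Sg U γ 1 (fun a => fderiv ℝ (f a))) :
    ∃ C, 0 ≤ C ∧ ∀ a, ∀ z ∈ U a, |G2 (σ a) (f a) z| ≤ C * γ 1 a z ^ 2 := by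
  have hU : ∀ a, IsOpen (U a) := fun a => (ok a).op
  have ρi : ∀ a, ∀ z ∈ U a, 0 ≤ (ρ a z)⁻¹ := fun a z hz => (inv_pos.2 (gd.ρ0 a z hz)).le
  obtain ⟨S, S0, hS⟩ := bd_all (ι' := ι × ι) (F := fun i a => (σ a).s i.1 i.2)
    (g := fun _ _ => 1) (U := U) (fun _ _ _ => zero_le_one) fun i => (s.ss i.1 i.2).norm_le
  obtain ⟨d, d0, hd⟩ := bd_all (ι' := ι × ι × ι)
    (F := fun i a => (σ a).D i.1 ((σ a).s i.2.1 i.2.2)) (U := U)
    (g := fun a z => (ρ a z)⁻¹) ρi fun i => by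
      obtain ⟨C, hC⟩ := (s.D (k := 1) hU (s.ss i.2.1 i.2.2) i.1).norm_le
      exact ⟨C, fun a z hz => by simpa using hC a z hz⟩
  obtain ⟨d', d0', hd'⟩ := bd_all (ι' := ι × ι × ι × ι)
    (F := fun i a => (σ a).D i.1 ((σ a).D i.2.1 ((σ a).s i.2.2.1 i.2.2.2))) (U := U)
    (g := fun a z => (ρ a z)⁻¹ * (ρ a z)⁻¹) (fun a z hz => mul_nonneg (ρi a z hz) (ρi a z hz))
    fun i => by
      obtain ⟨C, hC⟩ := (s.D (k := 0) hU (s.D (k := 1) hU (s.ss i.2.2.1 i.2.2.2) i.2.1) i.1).norm_le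
      exact ⟨C, fun a z hz => by simpa using hC a z hz⟩
  obtain ⟨w, w0, hw⟩ := bd_all (ι' := ι) (F := fun i a => (σ a).D i (f a)) (U := U)
    (gd.γ0 0) fun i => (fs_D s hU hf i).val
  obtain ⟨w', w0', hw'⟩ := bd_all (ι' := ι × ι) (F := fun i a => (σ a).D i.1 ((σ a).D i.2 (f a)))
    (U := U) (gd.γ0 1) fun i => by
      have := (fs_D1 s hU (fs_D s hU hf i.2) i.1).val
      simpa [sh] using this
  obtain ⟨A, A0, hA⟩ := gd.pw 0 1
  refine ⟨Fintype.card ι ^ 4 * (S ^ 2 * w' ^ 2 + 3 * (S * d * w * w' * A) +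
      1 / 2 * (S * d' * w ^ 2 * A ^ 2)) +
      Fintype.card ι ^ 4 * (1 / 2 * d ^ 2 * w ^ 2 * A ^ 2 + S * d' * w ^ 2 * A ^ 2), by positivity,
      fun a z hz => ?_⟩
  have key := G2_bd (ok a) (s.one a) (s.k0 a) (sf a) hz (S := S) (δ₁ := d * (ρ a z)⁻¹)
    (δ₂ := d' * ((ρ a z)⁻¹ * (ρ a z)⁻¹)) (w₁ := w * γ 0 a z) (w₂ := w' * γ 1 a z)
    (fun i j => by simpa using hS (i, j) a z hz) (fun l i j => hd (l, i, j) a z hz)
    (fun l k i j => hd' (l, k, i, j) a z hz) (fun i => hw i a z hz)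
    (fun i j => hw' (i, j) a z hz)
  refine key.trans ?_
  have h1 := hA a z hz
  rw [pow_one, zero_add] at h1
  have g0 := gd.γ0 0 a z hz
  have g1 := gd.γ0 1 a z hz
  have r0 := ρi a z hz
  set x := γ 0 a z * (ρ a z)⁻¹ with hx
  set y := γ 1 a z with hy
  have x0 : 0 ≤ x := mul_nonneg g0 r0
  have h2 : x * y ≤ A * y ^ 2 := by nlinarith
  have h3 : x ^ 2 ≤ A ^ 2 * y ^ 2 := by
    have := mul_self_le_mul_self x0 h1
    nlinarith
  have e1 : S * (d * (ρ a z)⁻¹) * (w * γ 0 a z) * (w' * y) = S * d * w * w' * (x * y) := by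
    rw [hx]; ring
  have e2 : S * (d' * ((ρ a z)⁻¹ * (ρ a z)⁻¹)) * (w * γ 0 a z) ^ 2 = S * d' * w ^ 2 * x ^ 2 := by
    rw [hx]; ring
  have e3 : 1 / 2 * (d * (ρ a z)⁻¹) ^ 2 * (w * γ 0 a z) ^ 2 = 1 / 2 * d ^ 2 * w ^ 2 * x ^ 2 := by
    rw [hx]; ring
  rw [e1, e2, e3]
  have q1 : S * d * w * w' * (x * y) ≤ S * d * w * w' * (A * y ^ 2) := by gcongr
  have q2 : S * d' * w ^ 2 * x ^ 2 ≤ S * d' * w ^ 2 * (A ^ 2 * y ^ 2) := by gcongr
  have q3 : 1 / 2 * d ^ 2 * w ^ 2 * x ^ 2 ≤ 1 / 2 * d ^ 2 * w ^ 2 * (A ^ 2 * y ^ 2) := by gcongr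
  have q4 : S ^ 2 * (w' * y) ^ 2 + 3 * (S * d * w * w' * (x * y)) + 1 / 2 * (S * d' * w ^ 2 * x ^ 2)
      ≤ (S ^ 2 * w' ^ 2 + 3 * (S * d * w * w' * A) + 1 / 2 * (S * d' * w ^ 2 * A ^ 2)) * y ^ 2 := by
    nlinarith
  have q5 : 1 / 2 * d ^ 2 * w ^ 2 * x ^ 2 + S * d' * w ^ 2 * x ^ 2 ≤
      (1 / 2 * d ^ 2 * w ^ 2 * A ^ 2 + S * d' * w ^ 2 * A ^ 2) * y ^ 2 := by nlinarith
  have c0 : (0 : ℝ) ≤ Fintype.card ι ^ 4 := by positivity
  have := add_le_add (mul_le_mul_of_nonneg_left q4 c0) (mul_le_mul_of_nonneg_left q5 c0)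
  refine this.trans (le_of_eq ?_)
  ring

/-- **All slot quantities with graded sizes.** -/
theorem sb4 {θ θ' : α → E → ℝ} (s : FS σ e U ρ 3) (t : FS τ e' U ρ 3)
    (ok : ∀ a, (σ a).Ok (U a) (θ a)) (ot : ∀ a, (τ a).Ok (U a) (θ' a)) (gd : Gd U ρ γ)
    (sf : ∀ a, Sm (U a) (f a)) (hf : Sg U γ 3 (fun a => fderiv ℝ (f a))) :
    ∃ C, 0 ≤ C ∧ ∀ a, ∀ z ∈ U a, Sb4 (σ a) (τ a) (f a) C (fun j => γ j a z) z := by
  have hU : ∀ a, IsOpen (U a) := fun a => (ok a).op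
  have g0 := gd.γ0
  have e1 : ∀ j, sh 1 (sh j γ) = sh (j + 1) γ := fun j => by
    funext l
    simp only [sh]
    rw [show j + (1 + l) = j + 1 + l by omega]
  have e0 : ∀ j, sh j γ 0 = γ j := fun j => by simp [sh]
  -- first and second derivatives
  obtain ⟨c1, c10, h1⟩ := bd_all (U := U) (ι' := ι) (F := fun i a => (σ a).D i (f a)) (g0 0)
    fun i => (fs_D s hU hf i).val
  obtain ⟨c2, c20, h2⟩ := bd_all (U := U) (ι' := κ) (F := fun i a => (τ a).D i (f a)) (g0 0)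
    fun i => (fs_D t hU hf i).val
  obtain ⟨c3, c30, h3⟩ := bd_all (U := U) (ι' := ι × ι)
    (F := fun i a => (σ a).D i.1 ((σ a).D i.2 (f a))) (g0 1) fun i => by
      have := (fs_D1 s hU (fs_D s hU hf i.2) i.1).val
      rwa [e0] at this
  obtain ⟨c4, c40, h4⟩ := bd_all (U := U) (ι' := κ × κ)
    (F := fun i a => (τ a).D i.1 ((τ a).D i.2 (f a))) (g0 1) fun i => by
      have := (fs_D1 t hU (fs_D t hU hf i.2) i.1).val
      rwa [e0] at this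
  obtain ⟨c5, c50, h5⟩ := bd_all (U := U) (ι' := ι × κ)
    (F := fun i a => (σ a).D i.1 ((τ a).D i.2 (f a))) (g0 1) fun i => by
      have := (fs_D1 s hU (fs_D t hU hf i.2) i.1).val
      rwa [e0] at this
  -- `Λ f`
  have L : Sg U (sh 1 γ) 2 fun a => (σ a).Λ (f a) := fs_L s hU gd hf
  have L' : Sg U (sh 1 γ) 2 fun a => (τ a).Λ (f a) := fs_L t hU gd hf
  obtain ⟨c6, c60, h6⟩ := bd_one (U := U) (F := fun a => (σ a).Λ (f a)) (g0 1) (by
    have := L.val; rwa [e0] at this)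
  obtain ⟨c7, c70, h7⟩ := bd_one (U := U) (F := fun a => (τ a).Λ (f a)) (g0 1) (by
    have := L'.val; rwa [e0] at this)
  have DL := L.fd hU
  have DL' := L'.fd hU
  rw [e1] at DL DL'
  obtain ⟨c8, c80, h8⟩ := bd_all (U := U) (ι' := ι) (F := fun i a => (σ a).D i ((σ a).Λ (f a)))
    (g0 2) fun i => by
      have := (fs_D s hU DL i).val
      rwa [e0] at this
  obtain ⟨c9, c90, h9⟩ := bd_all (U := U) (ι' := ι) (F := fun i a => (σ a).D i ((τ a).Λ (f a)))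
    (g0 2) fun i => by
      have := (fs_D s hU DL' i).val
      rwa [e0] at this
  obtain ⟨c10, c100, h10⟩ := bd_all (U := U) (ι' := κ) (F := fun i a => (τ a).D i ((σ a).Λ (f a)))
    (g0 2) fun i => by
      have := (fs_D t hU DL i).val
      rwa [e0] at this
  obtain ⟨c11, c110, h11⟩ := bd_all (U := U) (ι' := κ) (F := fun i a => (τ a).D i ((τ a).Λ (f a)))
    (g0 2) fun i => by
      have := (fs_D t hU DL' i).val
      rwa [e0] at this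
  -- `Λ Λ f`
  have s1 : FS σ e U ρ 1 := s.mono_k (by norm_num)
  have t1 : FS τ e' U ρ 1 := t.mono_k (by norm_num)
  have M1 := fs_L s1 hU (gd.sh 2) DL
  have M2' := fs_L s1 hU (gd.sh 2) DL'
  have M3 := fs_L t1 hU (gd.sh 2) DL
  have M4 := fs_L t1 hU (gd.sh 2) DL'
  rw [e1] at M1 M2' M3 M4
  obtain ⟨c12, c120, h12⟩ := bd_one (U := U) (F := fun a => (σ a).Λ ((σ a).Λ (f a))) (g0 3) (by
    have := M1.val; rwa [e0] at this)
  obtain ⟨c13, c130, h13⟩ := bd_one (U := U) (F := fun a => (σ a).Λ ((τ a).Λ (f a))) (g0 3) (by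
    have := M2'.val; rwa [e0] at this)
  obtain ⟨c14, c140, h14⟩ := bd_one (U := U) (F := fun a => (τ a).Λ ((σ a).Λ (f a))) (g0 3) (by
    have := M3.val; rwa [e0] at this)
  obtain ⟨c15, c150, h15⟩ := bd_one (U := U) (F := fun a => (τ a).Λ ((τ a).Λ (f a))) (g0 3) (by
    have := M4.val; rwa [e0] at this)
  -- quadratic quantities
  obtain ⟨c16, c160, h16⟩ := g2_bd (s.mono_k (by norm_num)) ok gd sf (hf.mono_k (by norm_num))
  obtain ⟨c17, c170, h17⟩ := g2_bd (t.mono_k (by norm_num)) ot gd sf (hf.mono_k (by norm_num))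
  obtain ⟨S, S0, hS⟩ := bd_all (ι' := ι × ι) (F := fun i a => (σ a).s i.1 i.2)
    (g := fun _ _ => 1) (U := U) (fun _ _ _ => zero_le_one) fun i => (s.ss i.1 i.2).norm_le
  obtain ⟨S', S0', hS'⟩ := bd_all (ι' := κ × κ) (F := fun i a => (τ a).s i.1 i.2)
    (g := fun _ _ => 1) (U := U) (fun _ _ _ => zero_le_one) fun i => (t.ss i.1 i.2).norm_le
  set c18 : ℝ := Fintype.card κ ^ 2 * (Fintype.card ι ^ 2 * (S' * S * c5 ^ 2)) with hc18
  have c180 : 0 ≤ c18 := by positivity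
  refine ⟨c1 + c2 + c3 + c4 + c5 + c6 + c7 + c8 + c9 + c10 + c11 + c12 + c13 + c14 + c15 + c16 +
    c17 + c18, by positivity, fun a z hz => ?_⟩
  have G : ∀ j, 0 ≤ γ j a z := fun j => g0 j a z hz
  have G' : 0 ≤ γ 1 a z ^ 2 := sq_nonneg _
  constructor
  · exact fun i => (h1 i a z hz).trans (mul_le_mul_of_nonneg_right (by linarith) (G _))
  · exact fun i => (h2 i a z hz).trans (mul_le_mul_of_nonneg_right (by linarith) (G _))
  · exact fun i j => (h3 (i, j) a z hz).trans (mul_le_mul_of_nonneg_right (by linarith) (G _))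
  · exact fun i j => (h4 (i, j) a z hz).trans (mul_le_mul_of_nonneg_right (by linarith) (G _))
  · exact fun i j => (h5 (i, j) a z hz).trans (mul_le_mul_of_nonneg_right (by linarith) (G _))
  · exact (h6 a z hz).trans (mul_le_mul_of_nonneg_right (by linarith) (G _))
  · exact (h7 a z hz).trans (mul_le_mul_of_nonneg_right (by linarith) (G _))
  · exact fun i => (h8 i a z hz).trans (mul_le_mul_of_nonneg_right (by linarith) (G _))
  · exact fun i => (h9 i a z hz).trans (mul_le_mul_of_nonneg_right (by linarith) (G _))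
  · exact fun i => (h10 i a z hz).trans (mul_le_mul_of_nonneg_right (by linarith) (G _))
  · exact fun i => (h11 i a z hz).trans (mul_le_mul_of_nonneg_right (by linarith) (G _))
  · exact (h12 a z hz).trans (mul_le_mul_of_nonneg_right (by linarith) (G _))
  · exact (h13 a z hz).trans (mul_le_mul_of_nonneg_right (by linarith) (G _))
  · exact (h14 a z hz).trans (mul_le_mul_of_nonneg_right (by linarith) (G _))
  · exact (h15 a z hz).trans (mul_le_mul_of_nonneg_right (by linarith) (G _))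
  · exact (h16 a z hz).trans (mul_le_mul_of_nonneg_right (by linarith) G')
  · exact (h17 a z hz).trans (mul_le_mul_of_nonneg_right (by linarith) G')
  · have key := M2_bd (σ := σ a) (τ := τ a) (W := f a) (z := z) (w := c5 * γ 1 a z)
      (fun i j => by simpa using hS (i, j) a z hz) (fun i j => by simpa using hS' (i, j) a z hz)
      fun i k => h5 (i, k) a z hz
    refine key.trans ?_
    have e : (Fintype.card κ : ℝ) ^ 2 * (Fintype.card ι ^ 2 * (S' * S * (c5 * γ 1 a z) ^ 2)) =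
        c18 * γ 1 a z ^ 2 := by rw [hc18]; ring
    rw [e]
    exact mul_le_mul_of_nonneg_right (by linarith) G'

end Vale.Agent.P088.R2.H269.INF
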